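import Vale.Agent.P045.Degree

namespace Vale.Agent.Results.P045.DegreeBoundOutsideTwoParts

open Vale.Agent.P045

/-- For every finite `r`-partite `r`-uniform hypergraph `H`, any two parts `i`, `j`, and any
bounds `D k` on the vertex degrees in the other parts `k`,
`τ(H) ≤ (1 + ∑_{k ≠ i, j} (D k - 1)) ν(H)`. -/
theorem result (r : ℕ) (V : Type) [DecidableEq V] (H : Finset (Fin r → V)) (i j : Fin r)
    (D : Fin r → ℕ) (hdeg : ∀ k : Fin r, k ≠ i → k ≠ j → ∀ v : V, deg H k v ≤ D k) :
    tau H ≤ (1 + ∑ k ∈ (Finset.univ.erase i).erase j, (D k - 1)) * nu H :=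
  tau_le_of_degree_bound H i j D hdeg

end Vale.Agent.Results.P045.DegreeBoundOutsideTwoParts
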