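import Vale.Agent.P045.Degree

namespace Vale.Agent.Results.P045.DegreeTwoOutsideTwoParts

open Vale.Agent.P045

/-- Ryser's inequality `τ(H) ≤ (r - 1) ν(H)` for every finite `r`-partite `r`-uniform hypergraph
`H` that has two parts `i ≠ j` such that every vertex outside these two parts lies in at most two
edges (the degrees inside parts `i` and `j` are arbitrary). -/
theorem result (r : ℕ) (V : Type) [DecidableEq V] (H : Finset (Fin r → V)) (i j : Fin r)
    (hij : i ≠ j) (hdeg : ∀ k : Fin r, k ≠ i → k ≠ j → ∀ v : V, deg H k v ≤ 2) :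
    tau H ≤ (r - 1) * nu H :=
  ryser_of_degree_le_two H i j hij hdeg

end Vale.Agent.Results.P045.DegreeTwoOutsideTwoParts
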