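import Vale.Agent.P045.Degree

namespace Vale.Agent.Results.P045.PlainMinMax

open Vale.Agent.P045

/-- Statement in plain terms, with no definition of ours.  `H` is a finite `r`-partite `r`-uniform
hypergraph: an edge is a function `e : Fin r → V`, its vertex in part `k` is the pair `(k, e k)`.
Let `i`, `j` be two parts and let `D k` bound the number of edges through any vertex of any other
part `k`; put `K = 1 + ∑_{k ≠ i, j} (D k - 1)`.
(1) There are a vertex cover `C` and a matching `M` with `|C| ≤ K |M|`.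
(2) Every minimum vertex cover `C` and every maximum matching `M` satisfy `|C| ≤ K |M|`.
(3) If `i ≠ j` and all `D k ≤ 2`, every minimum vertex cover `C` and every maximum matching `M`
satisfy Ryser's inequality `|C| ≤ (r - 1) |M|`. -/
theorem result (r : ℕ) (V : Type) [DecidableEq V] (H : Finset (Fin r → V)) (i j : Fin r)
    (D : Fin r → ℕ)
    (hdeg : ∀ k : Fin r, k ≠ i → k ≠ j → ∀ v : V, (H.filter (fun e => e k = v)).card ≤ D k) :
    (∃ (C : Finset (Fin r × V)) (M : Finset (Fin r → V)),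
      (∀ e ∈ H, ∃ k, (k, e k) ∈ C) ∧
      (M ⊆ H ∧ ∀ e ∈ M, ∀ f ∈ M, e ≠ f → ∀ k, e k ≠ f k) ∧
      C.card ≤ (1 + ∑ k ∈ (Finset.univ.erase i).erase j, (D k - 1)) * M.card) ∧
    (∀ (C : Finset (Fin r × V)) (M : Finset (Fin r → V)),
      (∀ e ∈ H, ∃ k, (k, e k) ∈ C) →
      (∀ C' : Finset (Fin r × V), (∀ e ∈ H, ∃ k, (k, e k) ∈ C') → C.card ≤ C'.card) →
      (M ⊆ H ∧ ∀ e ∈ M, ∀ f ∈ M, e ≠ f → ∀ k, e k ≠ f k) →
      (∀ M' : Finset (Fin r → V),
        (M' ⊆ H ∧ ∀ e ∈ M', ∀ f ∈ M', e ≠ f → ∀ k, e k ≠ f k) → M'.card ≤ M.card) →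
      C.card ≤ (1 + ∑ k ∈ (Finset.univ.erase i).erase j, (D k - 1)) * M.card ∧
      (i ≠ j → (∀ k, D k ≤ 2) → C.card ≤ (r - 1) * M.card)) := by
  have key : ∀ D' : Fin r → ℕ,
      (∀ k : Fin r, k ≠ i → k ≠ j → ∀ v : V, (H.filter (fun e => e k = v)).card ≤ D' k) →
      ∃ (C : Finset (Fin r × V)) (M : Finset (Fin r → V)),
      (∀ e ∈ H, ∃ k, (k, e k) ∈ C) ∧
      (M ⊆ H ∧ ∀ e ∈ M, ∀ f ∈ M, e ≠ f → ∀ k, e k ≠ f k) ∧
      C.card ≤ (1 + ∑ k ∈ (Finset.univ.erase i).erase j, (D' k - 1)) * M.card := by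
    intro D' h'
    obtain ⟨C, M, hC, hM, hcard⟩ := exists_cover_matching H i j D' h'
    exact ⟨C, M, hC, hM, hcard⟩
  refine ⟨key D hdeg, ?_⟩
  intro C M _ hCmin _ hMmax
  constructor
  · obtain ⟨C0, M0, hC0, hM0, hcard⟩ := key D hdeg
    calc C.card ≤ C0.card := hCmin C0 hC0
      _ ≤ _ := hcard
      _ ≤ _ := Nat.mul_le_mul_left _ (hMmax M0 hM0)
  · intro hij hD2
    obtain ⟨C0, M0, hC0, hM0, hcard⟩ := key (fun _ => 2)
      (fun k hk1 hk2 v => le_trans (hdeg k hk1 hk2 v) (hD2 k))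
    have hsum : ∑ k ∈ ((Finset.univ : Finset (Fin r)).erase i).erase j, (2 - 1) = r - 2 := by
      rw [Finset.sum_const, Finset.card_erase_of_mem
        (Finset.mem_erase.2 ⟨hij.symm, Finset.mem_univ _⟩),
        Finset.card_erase_of_mem (Finset.mem_univ _)]
      simp
      omega
    rw [hsum] at hcard
    have hr : 2 ≤ r := by
      have h1 := i.2
      have h2 := j.2
      have h3 : (i : ℕ) ≠ j := fun h => hij (Fin.ext h)
      omega
    have h4 : 1 + (r - 2) = r - 1 := by omega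
    rw [h4] at hcard
    calc C.card ≤ C0.card := hCmin C0 hC0
      _ ≤ _ := hcard
      _ ≤ _ := Nat.mul_le_mul_left _ (hMmax M0 hM0)

end Vale.Agent.Results.P045.PlainMinMax
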